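import Mathlib

/-!
# Farthest points of compact sets in a Hilbert space (helper14, for S0167)

* `Far K`: points of `K` that are farthest from some centre.
* `subset_closure_convexHull_far`: a compact set lies in the closed convex hull of its farthest
  points.
* `dent`: near a farthest point `e` (from the centre `c`), the slice
  `{p ∈ K | ⟪e - c, p⟫ ≥ ⟪e - c, e⟫ - δ}` has radius `√(2δ)` around `e`.
-/

set_option autoImplicit false

namespace Crest.Agent.Helper14.Daug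

variable {H : Type*} [NormedAddCommGroup H] [InnerProductSpace ℝ H]

/-- Points of `K` which are farthest from some centre. -/
def Far (K : Set H) : Set H := {e | e ∈ K ∧ ∃ c : H, ∀ p ∈ K, ‖p - c‖ ≤ ‖e - c‖}

theorem exists_far {K : Set H} (hK : IsCompact K) (hne : K.Nonempty) (c : H) :
    ∃ e ∈ K, ∀ p ∈ K, ‖p - c‖ ≤ ‖e - c‖ := by
  obtain ⟨e, he, hmax⟩ := hK.exists_isMaxOn hne (f := fun p => ‖p - c‖)
    (by fun_prop)
  exact ⟨e, he, fun p hp => hmax hp⟩

/-- Slices at farthest points are small. -/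
theorem dent {K : Set H} {e c : H} (hfar : ∀ p ∈ K, ‖p - c‖ ≤ ‖e - c‖) {p : H} (hp : p ∈ K)
    {δ : ℝ} (h : inner ℝ (e - c) e - δ ≤ inner ℝ (e - c) p) : ‖p - e‖ ^ 2 ≤ 2 * δ := by
  have h1 : p - e = (p - c) - (e - c) := by abel
  have h2 : ‖p - c‖ ^ 2 ≤ ‖e - c‖ ^ 2 := pow_le_pow_left₀ (norm_nonneg _) (hfar p hp) 2
  have h3 : inner ℝ (p - c) (e - c) = inner ℝ (e - c) p - inner ℝ (e - c) c := by
    rw [real_inner_comm, inner_sub_right]
  have h4 : ‖e - c‖ ^ 2 = inner ℝ (e - c) e - inner ℝ (e - c) c := by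
    rw [← real_inner_self_eq_norm_sq, ← inner_sub_right]
  rw [h1, norm_sub_sq_real, h3]
  linarith

variable [CompleteSpace H]

/-- A compact set is contained in the closed convex hull of its farthest points. -/
theorem subset_closure_convexHull_far {K : Set H} (hK : IsCompact K) :
    K ⊆ closure (convexHull ℝ (Far K)) := by
  intro p hp
  have hne : K.Nonempty := ⟨p, hp⟩
  set M := closure (convexHull ℝ (Far K)) with hM
  have hMne : M.Nonempty := by
    obtain ⟨e, he, hfar⟩ := exists_far hK hne 0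
    exact ⟨e, subset_closure (subset_convexHull ℝ _ ⟨he, 0, hfar⟩)⟩
  have hMconv : Convex ℝ M := (convex_convexHull ℝ _).closure
  have hMcompl : IsComplete M := isClosed_closure.isComplete
  obtain ⟨q, hqM, hq⟩ := exists_norm_eq_iInf_of_complete_convex hMne hMcompl hMconv p
  have hinner := (norm_eq_iInf_iff_real_inner_le_zero hMconv hqM).mp hq
  by_contra hpM
  have hpq : p ≠ q := fun h => hpM (h ▸ hqM)
  have hd : 0 < ‖p - q‖ := norm_pos_iff.mpr (sub_ne_zero.mpr hpq)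
  obtain ⟨D, hD⟩ := hK.isBounded.exists_norm_le
  have hD' : ∀ m ∈ K, ‖m - q‖ ≤ D + ‖q‖ := fun m hm =>
    (norm_sub_le _ _).trans (by linarith [hD m hm])
  have hD'0 : 0 ≤ D + ‖q‖ := (norm_nonneg (p - q)).trans (hD' p hp)
  set s : ℝ := (D + ‖q‖) ^ 2 / ‖p - q‖ ^ 2 with hs
  have hs0 : 0 ≤ s := by positivity
  have hsd : s * ‖p - q‖ ^ 2 = (D + ‖q‖) ^ 2 := by
    rw [hs]; field_simp
  set c : H := q - s • (p - q) with hc
  obtain ⟨e, heK, hfar⟩ := exists_far hK hne c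
  have heM : e ∈ M := subset_closure (subset_convexHull ℝ _ ⟨heK, c, hfar⟩)
  have h1 : inner ℝ (p - q) (e - q) ≤ 0 := hinner e heM
  have h2 : ‖p - c‖ ≤ ‖e - c‖ := hfar p hp
  have h3 : p - c = (1 + s) • (p - q) := by rw [hc]; module
  have h4 : e - c = (e - q) + s • (p - q) := by rw [hc]; module
  have h5 : ‖e - c‖ ^ 2 = ‖e - q‖ ^ 2 + 2 * (s * inner ℝ (p - q) (e - q)) + s ^ 2 * ‖p - q‖ ^ 2 := by
    rw [h4, norm_add_sq_real, real_inner_smul_right, norm_smul, mul_pow, Real.norm_eq_abs, sq_abs,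
      real_inner_comm]
  have h6 : ‖p - c‖ ^ 2 = (1 + s) ^ 2 * ‖p - q‖ ^ 2 := by
    rw [h3, norm_smul, mul_pow, Real.norm_eq_abs, sq_abs]
  have h7 : ‖p - c‖ ^ 2 ≤ ‖e - c‖ ^ 2 := pow_le_pow_left₀ (norm_nonneg _) h2 2
  have h8 : ‖e - q‖ ^ 2 ≤ (D + ‖q‖) ^ 2 := pow_le_pow_left₀ (norm_nonneg _) (hD' e heK) 2
  have h9 : s * inner ℝ (p - q) (e - q) ≤ 0 := mul_nonpos_of_nonneg_of_nonpos hs0 h1
  have h10 : 0 < ‖p - q‖ ^ 2 := by positivity
  nlinarith

end Crest.Agent.Helper14.Daug
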