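import Mathlib
import Crest.Prelude.Def_DaugavetL1

/-!
# Daugavet property: slices and chains (helper14, for S0167)

Consequences of the rank-one Daugavet property of a real normed space `X`:

* `slice`: for every functional `φ`, vector `v`, weight `lam ≥ 0` and `δ > 0` there is `z` in the
  unit ball with `φ z ≥ ‖φ‖ - δ` and `‖v + lam • z‖ ≥ ‖v‖ + lam - δ`.
* `chain`: sequential choice along a finite family of weights and functionals.
-/

set_option autoImplicit false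

namespace Crest.Agent.Helper14.Daug

open Crest.AnalysisR Crest.AnalysisR.L1Subspace

variable {X : Type*} [NormedAddCommGroup X] [NormedSpace ℝ X]

/-- Raw consequence of the Daugavet equation for the rank-one operator `φ ⊗ v`. -/
theorem slice_raw (hD : HasDaugavetProperty X) (φ : X →L[ℝ] ℝ) (v : X) {δ : ℝ} (hδ : 0 < δ) :
    ∃ z : X, ‖z‖ ≤ 1 ∧ 0 ≤ φ z ∧ 1 + ‖φ‖ * ‖v‖ - δ < ‖z + φ z • v‖ := by
  have h := hD φ v
  rw [ContinuousLinearMap.norm_smulRight_apply] at h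
  have hlt : 1 + ‖φ‖ * ‖v‖ - δ < ‖ContinuousLinearMap.id ℝ X + φ.smulRight v‖ := by
    rw [h]; linarith
  obtain ⟨z, hz1, hz2⟩ := ContinuousLinearMap.exists_lt_apply_of_lt_opNorm _ hlt
  have hz2' : 1 + ‖φ‖ * ‖v‖ - δ < ‖z + φ z • v‖ := by simpa using hz2
  rcases le_total 0 (φ z) with h0 | h0
  · exact ⟨z, hz1.le, h0, hz2'⟩
  · refine ⟨-z, by simpa using hz1.le, by simpa using h0, ?_⟩
    have : -z + φ (-z) • v = -(z + φ z • v) := by
      rw [map_neg, neg_smul, neg_add]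
    rw [this, norm_neg]; exact hz2'

/-- A space with the Daugavet property is nontrivial. -/
theorem exists_ne_zero (hD : HasDaugavetProperty X) : ∃ v : X, v ≠ 0 := by
  by_contra hcon
  push Not at hcon
  have h := hD 0 0
  have hid : ContinuousLinearMap.id ℝ X = 0 := by
    ext x; simp [hcon x]
  simp [hid] at h

/-- Main case of the slice lemma. -/
theorem slice_main (hD : HasDaugavetProperty X) (φ : X →L[ℝ] ℝ) (hφ : φ ≠ 0) (v : X) (hv : v ≠ 0)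
    {lam δ : ℝ} (hlam : 0 < lam) (hδ : 0 < δ) :
    ∃ z : X, ‖z‖ ≤ 1 ∧ ‖φ‖ - δ ≤ φ z ∧ ‖v‖ + lam - δ ≤ ‖v + lam • z‖ := by
  have hφn : 0 < ‖φ‖ := norm_pos_iff.mpr hφ
  have hvn : 0 < ‖v‖ := norm_pos_iff.mpr hv
  set v' : X := (lam * ‖φ‖)⁻¹ • v with hv'
  have hv'n : ‖v'‖ = ‖v‖ / (lam * ‖φ‖) := by
    rw [hv', norm_smul, norm_inv, Real.norm_of_nonneg (by positivity)]; ring
  have hv'pos : 0 < ‖v'‖ := by rw [hv'n]; positivity
  set δ' : ℝ := min (δ / (2 * lam)) (δ * ‖v‖ / (lam * ‖φ‖)) with hδ'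
  have hδ'pos : 0 < δ' := lt_min (by positivity) (by positivity)
  obtain ⟨z, hz1, hz0, hz2⟩ := slice_raw hD φ v' hδ'pos
  have hφz : φ z ≤ ‖φ‖ := by
    calc φ z ≤ ‖φ z‖ := le_abs_self _
      _ ≤ ‖φ‖ * ‖z‖ := φ.le_opNorm z
      _ ≤ ‖φ‖ * 1 := by gcongr
      _ = ‖φ‖ := mul_one _
  have h1 : ‖z + φ z • v'‖ ≤ 1 + φ z * ‖v'‖ := by
    calc ‖z + φ z • v'‖ ≤ ‖z‖ + ‖φ z • v'‖ := norm_add_le _ _
      _ = ‖z‖ + φ z * ‖v'‖ := by rw [norm_smul, Real.norm_of_nonneg hz0]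
      _ ≤ 1 + φ z * ‖v'‖ := by linarith
  have h2 : (‖φ‖ - φ z) * ‖v'‖ < δ' := by nlinarith
  have h3 : ‖z + φ z • v'‖ ≤ ‖z + ‖φ‖ • v'‖ + (‖φ‖ - φ z) * ‖v'‖ := by
    have : z + φ z • v' = (z + ‖φ‖ • v') - (‖φ‖ - φ z) • v' := by rw [sub_smul]; abel
    rw [this]
    calc ‖(z + ‖φ‖ • v') - (‖φ‖ - φ z) • v'‖
        ≤ ‖z + ‖φ‖ • v'‖ + ‖(‖φ‖ - φ z) • v'‖ := norm_sub_le _ _
      _ = ‖z + ‖φ‖ • v'‖ + (‖φ‖ - φ z) * ‖v'‖ := by
          rw [norm_smul, Real.norm_of_nonneg (by linarith)]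
  have h4 : ‖φ‖ • v' = lam⁻¹ • v := by
    rw [hv', smul_smul]; congr 1; field_simp
  have h5 : v + lam • z = lam • (z + ‖φ‖ • v') := by
    rw [h4, smul_add, smul_smul, mul_inv_cancel₀ hlam.ne', one_smul, add_comm]
  refine ⟨z, hz1, ?_, ?_⟩
  · have h6 : δ' ≤ δ * ‖v'‖ := by
      rw [hv'n]
      calc δ' ≤ δ * ‖v‖ / (lam * ‖φ‖) := min_le_right _ _
        _ = δ * (‖v‖ / (lam * ‖φ‖)) := by ring
    have h7 : (‖φ‖ - φ z) * ‖v'‖ < δ * ‖v'‖ := lt_of_lt_of_le h2 h6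
    have h8 : ‖φ‖ - φ z < δ := lt_of_mul_lt_mul_right h7 hv'pos.le
    linarith
  · rw [h5, norm_smul, Real.norm_of_nonneg hlam.le]
    have h6 : δ' ≤ δ / (2 * lam) := min_le_left _ _
    have hlamδ : lam * δ' ≤ δ / 2 := by
      calc lam * δ' ≤ lam * (δ / (2 * lam)) := by gcongr
        _ = δ / 2 := by field_simp
    have h7 : ‖φ‖ * ‖v'‖ = ‖v‖ / lam := by rw [hv'n]; field_simp
    have h8 : 1 + ‖v‖ / lam - 2 * δ' < ‖z + ‖φ‖ • v'‖ := by linarith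
    have h9 : lam * (1 + ‖v‖ / lam - 2 * δ') = lam + ‖v‖ - 2 * (lam * δ') := by
      field_simp
    have h10 : lam * (1 + ‖v‖ / lam - 2 * δ') ≤ lam * ‖z + ‖φ‖ • v'‖ :=
      mul_le_mul_of_nonneg_left h8.le hlam.le
    linarith

/-- **Slice lemma** for spaces with the Daugavet property. -/
theorem slice (hD : HasDaugavetProperty X) (φ : X →L[ℝ] ℝ) (v : X)
    {lam δ : ℝ} (hlam : 0 ≤ lam) (hδ : 0 < δ) :
    ∃ z : X, ‖z‖ ≤ 1 ∧ ‖φ‖ - δ ≤ φ z ∧ ‖v‖ + lam - δ ≤ ‖v + lam • z‖ := by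
  -- the case `0 < lam`, `v ≠ 0`
  have key : ∀ (v : X), v ≠ 0 → ∀ (lam : ℝ), 0 < lam →
      ∃ z : X, ‖z‖ ≤ 1 ∧ ‖φ‖ - δ ≤ φ z ∧ ‖v‖ + lam - δ ≤ ‖v + lam • z‖ := by
    intro v hv lam hlam'
    by_cases hφ : φ = 0
    · have hvn : ‖v‖ ≠ 0 := norm_ne_zero_iff.mpr hv
      refine ⟨‖v‖⁻¹ • v, ?_, ?_, ?_⟩
      · rw [norm_smul, norm_inv, norm_norm, inv_mul_cancel₀ hvn]
      · simp [hφ]; linarith
      · have h1 : v + lam • ‖v‖⁻¹ • v = (1 + lam * ‖v‖⁻¹) • v := by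
          rw [add_smul, one_smul, mul_smul]
        rw [h1, norm_smul, Real.norm_of_nonneg (by positivity)]
        have h2 : (1 + lam * ‖v‖⁻¹) * ‖v‖ = ‖v‖ + lam := by field_simp
        linarith
    · exact slice_main hD φ hφ v hv hlam' hδ
  -- the case `0 < lam`
  have key2 : ∀ (v : X) (lam : ℝ), 0 < lam →
      ∃ z : X, ‖z‖ ≤ 1 ∧ ‖φ‖ - δ ≤ φ z ∧ ‖v‖ + lam - δ ≤ ‖v + lam • z‖ := by
    intro v lam hlam'
    by_cases hv : v = 0
    · obtain ⟨v₀, hv₀⟩ := exists_ne_zero hD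
      obtain ⟨z, hz1, hz2, hz3⟩ := key v₀ hv₀ lam hlam'
      refine ⟨z, hz1, hz2, ?_⟩
      have := norm_add_le v₀ (lam • z)
      rw [hv, zero_add, norm_zero]; linarith
    · exact key v hv lam hlam'
  rcases hlam.lt_or_eq with hlam' | hlam'
  · exact key2 v lam hlam'
  · obtain ⟨z, hz1, hz2, -⟩ := key2 v 1 zero_lt_one
    refine ⟨z, hz1, hz2, ?_⟩
    rw [← hlam']; simp; linarith

/-- **Chain lemma**: sequential choice of slice points for a finite family of weights and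
functionals, keeping the norm of `w + ∑ lam i • z i` almost additive. -/
theorem chain (hD : HasDaugavetProperty X) {ι : Type*} (t : Finset ι) (lam : ι → ℝ)
    (hlam : ∀ i ∈ t, 0 ≤ lam i) (ψ : ι → X →L[ℝ] ℝ) (w : X) {δ : ℝ} (hδ : 0 < δ) :
    ∃ z : ι → X, (∀ i ∈ t, ‖z i‖ ≤ 1 ∧ ‖ψ i‖ - δ ≤ ψ i (z i)) ∧
      ‖w‖ + ∑ i ∈ t, lam i - t.card * δ ≤ ‖w + ∑ i ∈ t, lam i • z i‖ := by
  classical
  induction t using Finset.induction_on with
  | empty => exact ⟨fun _ => 0, by simp, by simp⟩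
  | insert a t ha ih =>
    obtain ⟨z, hz1, hz2⟩ := ih (fun i hi => hlam i (Finset.mem_insert_of_mem hi))
    obtain ⟨za, hza1, hza2, hza3⟩ := slice hD (ψ a) (w + ∑ i ∈ t, lam i • z i)
      (hlam a (Finset.mem_insert_self a t)) hδ
    refine ⟨Function.update z a za, ?_, ?_⟩
    · intro i hi
      rcases Finset.mem_insert.mp hi with rfl | hi
      · simp [hza1, hza2]
      · have hne : i ≠ a := fun h => ha (h ▸ hi)
        rw [Function.update_of_ne hne]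
        exact hz1 i hi
    · rw [Finset.sum_insert ha, Finset.sum_insert ha, Finset.card_insert_of_notMem ha]
      have hsum : ∑ i ∈ t, lam i • Function.update z a za i = ∑ i ∈ t, lam i • z i := by
        apply Finset.sum_congr rfl
        intro i hi
        have hne : i ≠ a := fun h => ha (h ▸ hi)
        rw [Function.update_of_ne hne]
      rw [hsum, Function.update_self]
      have h1 : w + (lam a • za + ∑ i ∈ t, lam i • z i)
          = (w + ∑ i ∈ t, lam i • z i) + lam a • za := by abel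
      rw [h1]
      push_cast
      linarith

end Crest.Agent.Helper14.Daug
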