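import Mathlib
import Crest.Prelude.Def_DaugavetL1
import Crest.Agent.Helper14.DaugSlice
import Crest.Agent.Helper14.DaugGeom

/-!
# Key lemma for Daugavet spaces and finite-codimensional subspaces (helper14, for S0167)

* `near_quotient`: if `X` has the Daugavet property and `Λ : X →L H` maps into a finite-dimensional
  Hilbert space, then for `‖x‖ ≤ 1`, any `w` and `ε > 0` there is `z` in the unit ball with
  `‖Λ z - Λ x‖ ≤ ε` and `‖w + z‖ ≥ ‖w‖ + 1 - ε`.
* `key`: for a closed finite-codimensional subspace `S`, a unit vector `x` and `η > 0` there is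
  `u ∈ S` with `‖u‖ ≥ 2 - η` and `‖x + u‖ ≤ 1 + η`.
-/

set_option autoImplicit false

namespace Crest.Agent.Helper14.Daug

open Crest.AnalysisR Crest.AnalysisR.L1Subspace

variable {X : Type*} [NormedAddCommGroup X] [NormedSpace ℝ X]

theorem near_quotient {H : Type*} [NormedAddCommGroup H] [InnerProductSpace ℝ H]
    [FiniteDimensional ℝ H] (hD : HasDaugavetProperty X) (Λ : X →L[ℝ] H) (x w : X)
    (hx : ‖x‖ ≤ 1) {ε : ℝ} (hε : 0 < ε) :
    ∃ z : X, ‖z‖ ≤ 1 ∧ ‖Λ z - Λ x‖ ≤ ε ∧ ‖w‖ + 1 - ε ≤ ‖w + z‖ := by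
  classical
  have : CompleteSpace H := FiniteDimensional.complete ℝ H
  have : ProperSpace H := FiniteDimensional.proper_real H
  set K : Set H := closure (Λ '' Metric.closedBall 0 1) with hK
  have hKc : IsCompact K := by
    apply Metric.isCompact_of_isClosed_isBounded isClosed_closure
    exact (Λ.lipschitz.isBounded_image Metric.isBounded_closedBall).closure
  have hxK : Λ x ∈ K := subset_closure ⟨x, by simpa using hx, rfl⟩
  have hmem := subset_closure_convexHull_far hKc hxK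
  obtain ⟨p', hp', hdist⟩ := Metric.mem_closure_iff.mp hmem (ε / 2) (by positivity)
  rw [convexHull_eq] at hp'
  obtain ⟨ι, t, wt, pts, hw0, hw1, hpts, hcm⟩ := hp'
  rw [Finset.centerMass_eq_of_sum_1 _ _ hw1] at hcm
  -- centres
  have hcen : ∀ i, ∃ c : H, i ∈ t → ∀ p ∈ K, ‖p - c‖ ≤ ‖pts i - c‖ := by
    intro i
    by_cases hi : i ∈ t
    · obtain ⟨-, c, hc⟩ := hpts i hi
      exact ⟨c, fun _ => hc⟩
    · exact ⟨0, fun h => absurd h hi⟩
  choose c hc using hcen
  set ψ : ι → X →L[ℝ] ℝ := fun i => (innerSL ℝ (pts i - c i)).comp Λ with hψ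
  set δ : ℝ := min (ε / (t.card + 1)) (ε ^ 2 / 8) with hδ
  have hδpos : 0 < δ := lt_min (by positivity) (by positivity)
  obtain ⟨z, hz1, hz2⟩ := chain hD t wt hw0 ψ w hδpos
  refine ⟨∑ i ∈ t, wt i • z i, ?_, ?_, ?_⟩
  · calc ‖∑ i ∈ t, wt i • z i‖ ≤ ∑ i ∈ t, ‖wt i • z i‖ := norm_sum_le _ _
      _ ≤ ∑ i ∈ t, wt i := by
        apply Finset.sum_le_sum
        intro i hi
        rw [norm_smul, Real.norm_of_nonneg (hw0 i hi)]
        calc wt i * ‖z i‖ ≤ wt i * 1 :=
              mul_le_mul_of_nonneg_left (hz1 i hi).1 (hw0 i hi)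
          _ = wt i := mul_one _
      _ = 1 := hw1
  · -- each `Λ (z i)` is within `ε / 2` of `pts i`
    have hnear : ∀ i ∈ t, ‖Λ (z i) - pts i‖ ≤ ε / 2 := by
      intro i hi
      have hzK : Λ (z i) ∈ K := subset_closure ⟨z i, by simpa using (hz1 i hi).1, rfl⟩
      have hle : inner ℝ (pts i - c i) (pts i) ≤ ‖ψ i‖ := by
        have hsub : K ⊆ {p | inner ℝ (pts i - c i) p ≤ ‖ψ i‖} := by
          apply closure_minimal
          · rintro _ ⟨y, hy, rfl⟩
            have hy' : ‖y‖ ≤ 1 := by simpa using hy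
            calc inner ℝ (pts i - c i) (Λ y) = ψ i y := rfl
              _ ≤ ‖ψ i y‖ := le_abs_self _
              _ ≤ ‖ψ i‖ * ‖y‖ := (ψ i).le_opNorm y
              _ ≤ ‖ψ i‖ * 1 := by gcongr
              _ = ‖ψ i‖ := mul_one _
          · exact isClosed_le (by fun_prop) continuous_const
        exact hsub (hpts i hi).1
      have hsl : inner ℝ (pts i - c i) (pts i) - δ ≤ inner ℝ (pts i - c i) (Λ (z i)) := by
        have h1 := (hz1 i hi).2
        have h' : ψ i (z i) = inner ℝ (pts i - c i) (Λ (z i)) := rfl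
        linarith
      have hd := dent (hc i hi) hzK hsl
      have h3 : δ ≤ ε ^ 2 / 8 := min_le_right _ _
      have h2 : ‖Λ (z i) - pts i‖ ^ 2 ≤ (ε / 2) ^ 2 := by nlinarith
      exact le_of_sq_le_sq h2 (by positivity)
    have hΛ : Λ (∑ i ∈ t, wt i • z i) - p' = ∑ i ∈ t, wt i • (Λ (z i) - pts i) := by
      rw [map_sum, ← hcm, ← Finset.sum_sub_distrib]
      apply Finset.sum_congr rfl
      intro i _
      rw [map_smul, smul_sub]
    have h1 : ‖Λ (∑ i ∈ t, wt i • z i) - p'‖ ≤ ε / 2 := by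
      rw [hΛ]
      calc ‖∑ i ∈ t, wt i • (Λ (z i) - pts i)‖
          ≤ ∑ i ∈ t, ‖wt i • (Λ (z i) - pts i)‖ := norm_sum_le _ _
        _ ≤ ∑ i ∈ t, wt i * (ε / 2) := by
          apply Finset.sum_le_sum
          intro i hi
          rw [norm_smul, Real.norm_of_nonneg (hw0 i hi)]
          exact mul_le_mul_of_nonneg_left (hnear i hi) (hw0 i hi)
        _ = ε / 2 := by rw [← Finset.sum_mul, hw1, one_mul]
    have h2 : ‖p' - Λ x‖ < ε / 2 := by
      rw [← dist_eq_norm, dist_comm]; exact hdist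
    calc ‖Λ (∑ i ∈ t, wt i • z i) - Λ x‖
        = ‖(Λ (∑ i ∈ t, wt i • z i) - p') + (p' - Λ x)‖ := by congr 1; abel
      _ ≤ ‖Λ (∑ i ∈ t, wt i • z i) - p'‖ + ‖p' - Λ x‖ := norm_add_le _ _
      _ ≤ ε := by linarith
  · have h1 : (t.card : ℝ) * δ ≤ ε := by
      have h3 : δ ≤ ε / (t.card + 1) := min_le_left _ _
      calc (t.card : ℝ) * δ ≤ ((t.card : ℝ) + 1) * (ε / (t.card + 1)) := by
            gcongr; linarith
        _ = ε := by field_simp
    rw [hw1] at hz2
    linarith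

/-- **Key lemma**: in a space with the Daugavet property, every closed finite-codimensional
subspace `S` contains, for each unit vector `x`, a vector `u` of norm almost `2` with
`‖x + u‖` almost `1`. -/
theorem key (hD : HasDaugavetProperty X) (S : Submodule ℝ X) (hScl : IsClosed (S : Set X))
    (hfin : FiniteDimensional ℝ (X ⧸ S)) (x : X) (hx : ‖x‖ = 1) {η : ℝ} (hη : 0 < η) :
    ∃ u ∈ S, 2 - η ≤ ‖u‖ ∧ ‖x + u‖ ≤ 1 + η := by
  have := hScl
  have := hfin
  let e : (X ⧸ S) ≃L[ℝ] EuclideanSpace ℝ (Fin (Module.finrank ℝ (X ⧸ S))) := toEuclidean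
  let Λ : X →L[ℝ] EuclideanSpace ℝ (Fin (Module.finrank ℝ (X ⧸ S))) :=
    (e : (X ⧸ S) →L[ℝ] _).comp S.mkQL
  obtain ⟨C, hC⟩ : ∃ C : ℝ, C = ‖e.symm.toContinuousLinearMap‖ := ⟨_, rfl⟩
  have hC0 : 0 ≤ C := by rw [hC]; exact norm_nonneg e.symm.toContinuousLinearMap
  set ε : ℝ := η / (2 * (C + 1)) with hε
  have hεpos : 0 < ε := by positivity
  have hCε : (C + 1) * ε = η / 2 := by rw [hε]; field_simp
  obtain ⟨z, hz1, hz2, hz3⟩ := near_quotient hD Λ x (-x) hx.le hεpos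
  have hq : ‖S.mkQ (z - x)‖ ≤ C * ε := by
    have h1 : S.mkQ (z - x) = e.symm (Λ z - Λ x) := by
      simp [Λ]
    rw [h1]
    calc ‖e.symm (Λ z - Λ x)‖ ≤ C * ‖Λ z - Λ x‖ := by
          rw [hC]; exact e.symm.toContinuousLinearMap.le_opNorm _
      _ ≤ C * ε := by gcongr
  obtain ⟨m, hm, hmn⟩ := Submodule.Quotient.norm_mk_lt (S.mkQ (z - x)) hεpos
  have hmS : (z - x) - m ∈ S := by
    rw [← Submodule.Quotient.mk_eq_zero, Submodule.Quotient.mk_sub, hm]
    simp
  have hmn' : ‖m‖ ≤ η / 2 := by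
    have : ‖m‖ < C * ε + ε := lt_of_lt_of_le hmn (by linarith)
    linarith
  have hε2 : ε ≤ η / 2 := by nlinarith
  refine ⟨(z - x) - m, hmS, ?_, ?_⟩
  · have h1 : ‖-x + z‖ ≤ ‖z - x - m‖ + ‖m‖ := by
      have : -x + z = (z - x - m) + m := by abel
      rw [this]; exact norm_add_le _ _
    rw [norm_neg, hx] at hz3
    linarith
  · have h1 : x + (z - x - m) = z - m := by abel
    rw [h1]
    calc ‖z - m‖ ≤ ‖z‖ + ‖m‖ := norm_sub_le _ _
      _ ≤ 1 + η := by linarith

end Crest.Agent.Helper14.Daug
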