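import Mathlib
import Crest.Prelude.Def_DaugavetL1
import Crest.Agent.Helper7.AUCGame
import Crest.Agent.Helper14.DaugKey

/-!
# Upper bounds for the asymptotic moduli of a Daugavet space, and non-AUC-renormability
(helper14, for S0167)

Everything is in type-class form for a real normed space `V` with the rank-one Daugavet property,
using the predicates `Crest.Agent.Helper7.AUC.IsCof` etc. (definitionally the record versions).
-/

set_option autoImplicit false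

namespace Crest.Agent.Helper14.Daug

open Crest.AnalysisR Crest.AnalysisR.L1Subspace Crest.Agent.Helper7

variable {V : Type*} [NormedAddCommGroup V] [NormedSpace ℝ V]

/-- In a Daugavet space every closed finite-codimensional subspace contains, for each unit vector
`x`, a unit vector `y` with `‖x + 2 • y‖ ≤ 1 + η`. -/
theorem exists_unit_two (hD : HasDaugavetProperty V) {F : Set V} (hF : AUC.IsCof F) (x : V)
    (hx : ‖x‖ = 1) {η : ℝ} (hη : 0 < η) :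
    ∃ y ∈ F, ‖y‖ = 1 ∧ ‖x + (2 : ℝ) • y‖ ≤ 1 + η := by
  obtain ⟨S, rfl, hScl, hfin⟩ := hF
  obtain ⟨η', hη'def⟩ : ∃ η' : ℝ, η' = min (η / 2) 1 := ⟨_, rfl⟩
  have hη'pos : 0 < η' := by rw [hη'def]; exact lt_min (by positivity) one_pos
  have hη'1 : η' ≤ 1 := by rw [hη'def]; exact min_le_right _ _
  have hη'2 : η' ≤ η / 2 := by rw [hη'def]; exact min_le_left _ _
  obtain ⟨u, huS, hu1, hu2⟩ := key hD S hScl hfin x hx hη'pos
  have hu0 : 0 < ‖u‖ := by linarith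
  have hu3 : ‖u‖ ≤ 2 + η' := by
    calc ‖u‖ = ‖(x + u) - x‖ := by congr 1; abel
      _ ≤ ‖x + u‖ + ‖x‖ := norm_sub_le _ _
      _ ≤ 2 + η' := by linarith
  refine ⟨‖u‖⁻¹ • u, S.smul_mem _ huS, ?_, ?_⟩
  · rw [norm_smul, norm_inv, norm_norm, inv_mul_cancel₀ hu0.ne']
  · have h1 : x + (2 : ℝ) • ‖u‖⁻¹ • u = (x + u) + (2 * ‖u‖⁻¹ - 1) • u := by
      rw [sub_smul, one_smul, mul_smul]; abel
    have h2 : |2 * ‖u‖⁻¹ - 1| * ‖u‖ = |2 - ‖u‖| := by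
      have h3 : (2 * ‖u‖⁻¹ - 1) * ‖u‖ = 2 - ‖u‖ := by field_simp
      rw [← h3, abs_mul, abs_of_pos hu0]
    have h4 : |2 - ‖u‖| ≤ η' := by
      rw [abs_le]; constructor <;> linarith
    rw [h1]
    calc ‖(x + u) + (2 * ‖u‖⁻¹ - 1) • u‖ ≤ ‖x + u‖ + ‖(2 * ‖u‖⁻¹ - 1) • u‖ := norm_add_le _ _
      _ = ‖x + u‖ + |2 - ‖u‖| := by rw [norm_smul, Real.norm_eq_abs, h2]
      _ ≤ 1 + η := by linarith

/-- Along a unit direction `y` with `‖x + 2 • y‖ ≤ 1 + η`: `‖x + t • y‖ ≤ 1 + max 0 (t - 2) + η`. -/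
theorem norm_add_smul_le {x y : V} (hx : ‖x‖ = 1) (hy : ‖y‖ = 1) {η : ℝ}
    (h : ‖x + (2 : ℝ) • y‖ ≤ 1 + η) {t : ℝ} (ht : 0 < t) :
    ‖x + t • y‖ ≤ 1 + max 0 (t - 2) + η := by
  have hη : 0 ≤ η := by
    have h1 : ‖(2 : ℝ) • y‖ ≤ ‖x + (2 : ℝ) • y‖ + ‖x‖ := by
      calc ‖(2 : ℝ) • y‖ = ‖(x + (2 : ℝ) • y) - x‖ := by congr 1; abel
        _ ≤ ‖x + (2 : ℝ) • y‖ + ‖x‖ := norm_sub_le _ _
    rw [norm_smul, hy, hx] at h1
    norm_num at h1
    linarith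
  rcases le_total t 2 with h2 | h2
  · have h1 : x + t • y = (1 - t / 2) • x + (t / 2) • (x + (2 : ℝ) • y) := by
      rw [smul_add, smul_smul, sub_smul, one_smul]
      have : t / 2 * 2 = t := by ring
      rw [this]; abel
    have h3 : max 0 (t - 2) = 0 := max_eq_left (by linarith)
    rw [h1, h3]
    calc ‖(1 - t / 2) • x + (t / 2) • (x + (2 : ℝ) • y)‖
        ≤ ‖(1 - t / 2) • x‖ + ‖(t / 2) • (x + (2 : ℝ) • y)‖ := norm_add_le _ _
      _ = (1 - t / 2) * 1 + (t / 2) * ‖x + (2 : ℝ) • y‖ := by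
          rw [norm_smul, norm_smul, Real.norm_of_nonneg (by linarith),
            Real.norm_of_nonneg (by linarith), hx]
      _ ≤ (1 - t / 2) * 1 + (t / 2) * (1 + η) := by
          have : (t / 2) * ‖x + (2 : ℝ) • y‖ ≤ (t / 2) * (1 + η) :=
            mul_le_mul_of_nonneg_left h (by linarith)
          linarith
      _ ≤ 1 + 0 + η := by nlinarith
  · have h1 : x + t • y = (x + (2 : ℝ) • y) + (t - 2) • y := by
      rw [sub_smul]; abel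
    have h3 : max 0 (t - 2) = t - 2 := max_eq_right (by linarith)
    rw [h1, h3]
    calc ‖(x + (2 : ℝ) • y) + (t - 2) • y‖ ≤ ‖x + (2 : ℝ) • y‖ + ‖(t - 2) • y‖ := norm_add_le _ _
      _ = ‖x + (2 : ℝ) • y‖ + (t - 2) := by
          rw [norm_smul, Real.norm_of_nonneg (by linarith), hy, mul_one]
      _ ≤ 1 + (t - 2) + η := by linarith

/-- Upper bound for the one-sided asymptotic modulus of a Daugavet space. -/
theorem oneSided_le (hD : HasDaugavetProperty V) (t : ℝ) (ht : 0 < t) :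
    ∀ x : V, ‖x‖ = 1 → ∀ F : Set V, AUC.IsCof F → ∀ η : ℝ, 0 < η →
      ∃ y ∈ F, ‖y‖ = 1 ∧ ‖x + t • y‖ - 1 ≤ max 0 (t - 2) + η := by
  intro x hx F hF η hη
  obtain ⟨y, hyF, hy, h⟩ := exists_unit_two hD hF x hx hη
  refine ⟨y, hyF, hy, ?_⟩
  have := norm_add_smul_le hx hy h ht
  linarith

/-- Upper bound for the midpoint asymptotic modulus of a Daugavet space. -/
theorem midpoint_le (hD : HasDaugavetProperty V) (t : ℝ) (ht : 0 < t) :
    ∀ x : V, ‖x‖ = 1 → ∀ F : Set V, AUC.IsCof F → ∀ η : ℝ, 0 < η →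
      ∃ y ∈ F, ‖y‖ = 1 ∧ (‖x + t • y‖ + ‖x - t • y‖) / 2 - 1 ≤ max (t / 2) (t - 1) + η := by
  intro x hx F hF η hη
  obtain ⟨y, hyF, hy, h⟩ := exists_unit_two hD hF x hx hη
  refine ⟨y, hyF, hy, ?_⟩
  have h1 := norm_add_smul_le hx hy h ht
  have h2 : ‖x - t • y‖ ≤ 1 + t := by
    calc ‖x - t • y‖ ≤ ‖x‖ + ‖t • y‖ := norm_sub_le _ _
      _ = 1 + t := by rw [norm_smul, Real.norm_of_nonneg ht.le, hx, hy, mul_one]
  have h3 : (t + max 0 (t - 2)) / 2 ≤ max (t / 2) (t - 1) := by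
    rcases le_total t 2 with h2 | h2
    · rw [max_eq_left (by linarith)]
      exact le_trans (by linarith) (le_max_left _ _)
    · rw [max_eq_right (by linarith)]
      exact le_trans (by linarith) (le_max_right _ _)
  linarith

/-- A Daugavet space has no equivalent asymptotically uniformly convex norm. -/
theorem not_isAUC (hD : HasDaugavetProperty V) (N : V → ℝ) (hN : AUC.IsEquivNorm N) :
    ¬ AUC.IsAUC N := by
  refine AUC.not_isAUC_of_good (C := 2) (ρ := 1 / 2) (by norm_num) ?_ N hN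
  intro n
  obtain ⟨v₀, hv₀⟩ := exists_ne_zero hD
  have hv₀n : ‖v₀‖ ≠ 0 := norm_ne_zero_iff.mpr hv₀
  obtain ⟨θ, hθdef⟩ : ∃ θ : ℝ, θ = 1 / (2 * ((n : ℝ) + 1)) := ⟨_, rfl⟩
  have hn0 : (0 : ℝ) ≤ n := Nat.cast_nonneg n
  have hθpos : 0 < θ := by rw [hθdef]; positivity
  have hθn : (n : ℝ) * θ ≤ 1 / 2 := by
    rw [hθdef]
    have : (n : ℝ) * (1 / (2 * ((n : ℝ) + 1))) = (n : ℝ) / (2 * ((n : ℝ) + 1)) := by ring
    rw [this, div_le_iff₀ (by positivity)]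
    linarith
  have hθ1 : θ ≤ 1 / 2 := by
    rw [hθdef, div_le_iff₀ (by positivity)]
    linarith
  -- the invariant: a norm window that widens as the number of remaining rounds decreases
  let Pinv : ℕ → V → Prop := fun j S => 1 / 2 + (j : ℝ) * θ ≤ ‖S‖ ∧ ‖S‖ ≤ 3 / 2 - (j : ℝ) * θ
  have step : ∀ (j : ℕ) (S : V), Pinv (j + 1) S → ∀ F : Set V, AUC.IsCof F →
      ∃ y ∈ F, 1 / 2 ≤ ‖y‖ ∧ ‖S + y‖ ≤ 2 ∧ Pinv j (S + y) := by
    intro j S hS F hF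
    obtain ⟨hS1, hS2⟩ := hS
    push_cast at hS1 hS2
    have hj0 : (0 : ℝ) ≤ j := Nat.cast_nonneg j
    have hjθ : 0 ≤ (j : ℝ) * θ := mul_nonneg hj0 hθpos.le
    have hSpos : 0 < ‖S‖ := by nlinarith
    have hSle : ‖S‖ ≤ 3 / 2 := by nlinarith
    obtain ⟨Sub, rfl, hScl, hfin⟩ := hF
    have hx : ‖‖S‖⁻¹ • S‖ = 1 := by
      rw [norm_smul, norm_inv, norm_norm, inv_mul_cancel₀ hSpos.ne']
    obtain ⟨u, huS, hu1, hu2⟩ := key hD Sub hScl hfin (‖S‖⁻¹ • S) hx (η := θ / 2) (by positivity)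
    have hu3 : 1 - θ / 2 ≤ ‖‖S‖⁻¹ • S + u‖ := by
      have h1 : ‖u‖ ≤ ‖‖S‖⁻¹ • S + u‖ + ‖‖S‖⁻¹ • S‖ := by
        calc ‖u‖ = ‖(‖S‖⁻¹ • S + u) - ‖S‖⁻¹ • S‖ := by congr 1; abel
          _ ≤ ‖‖S‖⁻¹ • S + u‖ + ‖‖S‖⁻¹ • S‖ := norm_sub_le _ _
      rw [hx] at h1
      linarith
    have hSy : S + ‖S‖ • u = ‖S‖ • (‖S‖⁻¹ • S + u) := by
      rw [smul_add, smul_smul, mul_inv_cancel₀ hSpos.ne', one_smul]
    have hSyn : ‖S + ‖S‖ • u‖ = ‖S‖ * ‖‖S‖⁻¹ • S + u‖ := by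
      rw [hSy, norm_smul, norm_norm]
    have hup : ‖S + ‖S‖ • u‖ ≤ ‖S‖ + θ := by
      rw [hSyn]
      have : ‖S‖ * ‖‖S‖⁻¹ • S + u‖ ≤ ‖S‖ * (1 + θ / 2) :=
        mul_le_mul_of_nonneg_left hu2 hSpos.le
      nlinarith
    have hlow : ‖S‖ - θ ≤ ‖S + ‖S‖ • u‖ := by
      rw [hSyn]
      have : ‖S‖ * (1 - θ / 2) ≤ ‖S‖ * ‖‖S‖⁻¹ • S + u‖ :=
        mul_le_mul_of_nonneg_left hu3 hSpos.le
      nlinarith
    refine ⟨‖S‖ • u, Sub.smul_mem _ huS, ?_, ?_, ?_, ?_⟩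
    · rw [norm_smul, norm_norm]
      have h1 : (1 / 2 : ℝ) * (2 - θ / 2) ≤ ‖S‖ * ‖u‖ := by
        apply mul_le_mul _ hu1 (by linarith) hSpos.le
        nlinarith
      nlinarith
    · linarith
    · linarith
    · linarith
  refine ⟨‖v₀‖⁻¹ • v₀, ?_, ?_, AUC.good_of_invariant Pinv step n _ ?_⟩
  · rw [norm_smul, norm_inv, norm_norm, inv_mul_cancel₀ hv₀n]; norm_num
  · rw [norm_smul, norm_inv, norm_norm, inv_mul_cancel₀ hv₀n]; norm_num
  · have h1 : ‖‖v₀‖⁻¹ • v₀‖ = 1 := by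
      rw [norm_smul, norm_inv, norm_norm, inv_mul_cancel₀ hv₀n]
    exact ⟨by rw [h1]; linarith, by rw [h1]; linarith⟩

end Crest.Agent.Helper14.Daug
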