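import Mathlib
import Crest.Agent.Helper19.S0423Defs
import Crest.Agent.Helper7.S0423Concave

/-!
# S0423, module M3 (part 1): chord comparison for log-concave distribution functions

`Gc α β u = min 1 (exp (α + β u))` is the distribution function of a shifted reflected
exponential variable.  For a `GoodCDF F` and `u₁ < u₂`, the chord of `log F` through `u₁, u₂`
gives parameters `α, β` with `β > 0`, `Gc α β ≤ F` on `[u₁, u₂]` and `F ≤ Gc α β` elsewhere.
-/

namespace Crest.Agent.Helper14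

open Crest.Agent.Helper19 MeasureTheory Set

/-- Comparison distribution function. -/
noncomputable def Gc (α β : ℝ) (u : ℝ) : ℝ := min 1 (Real.exp (α + β * u))

theorem Gc_nonneg (α β u : ℝ) : 0 ≤ Gc α β u :=
  le_min zero_le_one (Real.exp_pos _).le

theorem Gc_le_one (α β u : ℝ) : Gc α β u ≤ 1 := min_le_left _ _

theorem Gc_continuous (α β : ℝ) : Continuous (Gc α β) := by
  unfold Gc
  fun_prop

theorem Gc_mono_left {α α' : ℝ} (h : α ≤ α') (β u : ℝ) : Gc α β u ≤ Gc α' β u := by
  unfold Gc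
  exact min_le_min le_rfl (Real.exp_le_exp.mpr (by linarith))

/-- Three-point form of concavity. -/
theorem three_point {f : ℝ → ℝ} (hf : ConcaveOn ℝ Set.univ f) {x y z : ℝ} (hxy : x ≤ y)
    (hyz : y ≤ z) : (z - y) * f x + (y - x) * f z ≤ (z - x) * f y := by
  rcases eq_or_lt_of_le (hxy.trans hyz) with h | h
  · have hy : y = x := le_antisymm (h ▸ hyz) hxy
    subst hy; subst h; simp
  · have hzx : 0 < z - x := sub_pos.mpr h
    have key := hf.2 (mem_univ x) (mem_univ z)
      (div_nonneg (sub_nonneg.mpr hyz) hzx.le) (div_nonneg (sub_nonneg.mpr hxy) hzx.le)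
      (by field_simp; ring)
    simp only [smul_eq_mul] at key
    have e : (z - y) / (z - x) * x + (y - x) / (z - x) * z = y := by
      field_simp; ring
    rw [e] at key
    have := mul_le_mul_of_nonneg_left key hzx.le
    calc (z - y) * f x + (y - x) * f z
        = (z - x) * ((z - y) / (z - x) * f x + (y - x) / (z - x) * f z) := by
          field_simp
      _ ≤ (z - x) * f y := this

/-- Slope of the chord of `log F` through `u₁, u₂`. -/
noncomputable def chordβ (F : ℝ → ℝ) (u₁ u₂ : ℝ) : ℝ :=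
  (Real.log (F u₂) - Real.log (F u₁)) / (u₂ - u₁)

/-- Intercept (value at `0`) of the chord of `log F` through `u₁, u₂`. -/
noncomputable def chordα (F : ℝ → ℝ) (u₁ u₂ : ℝ) : ℝ :=
  Real.log (F u₁) - chordβ F u₁ u₂ * u₁

theorem chord_line (F : ℝ → ℝ) {u₁ u₂ : ℝ} (h : u₁ < u₂) (u : ℝ) :
    (u₂ - u₁) * (chordα F u₁ u₂ + chordβ F u₁ u₂ * u)
      = (u₂ - u) * Real.log (F u₁) + (u - u₁) * Real.log (F u₂) := by
  have hd : u₂ - u₁ ≠ 0 := (sub_pos.mpr h).ne'
  unfold chordα chordβ
  field_simp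
  ring

theorem chord_inside {F : ℝ → ℝ} (hF : GoodCDF F) {u₁ u₂ : ℝ} (h : u₁ < u₂) {u : ℝ}
    (h1 : u₁ ≤ u) (h2 : u ≤ u₂) : Gc (chordα F u₁ u₂) (chordβ F u₁ u₂) u ≤ F u := by
  have hf := Crest.Agent.Helper7.concaveOn_log_of_fourPoint F hF.cont hF.pos hF.logconc
  have hd : 0 < u₂ - u₁ := sub_pos.mpr h
  have tp := three_point hf h1 h2
  have cl := chord_line F h u
  have hle : chordα F u₁ u₂ + chordβ F u₁ u₂ * u ≤ Real.log (F u) := by
    have : (u₂ - u₁) * (chordα F u₁ u₂ + chordβ F u₁ u₂ * u) ≤ (u₂ - u₁) * Real.log (F u) := by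
      rw [cl]; exact tp
    exact le_of_mul_le_mul_left this hd
  calc Gc (chordα F u₁ u₂) (chordβ F u₁ u₂) u
      ≤ Real.exp (chordα F u₁ u₂ + chordβ F u₁ u₂ * u) := min_le_right _ _
    _ ≤ Real.exp (Real.log (F u)) := Real.exp_le_exp.mpr hle
    _ = F u := Real.exp_log (hF.pos u)

theorem chord_outside {F : ℝ → ℝ} (hF : GoodCDF F) {u₁ u₂ : ℝ} (h : u₁ < u₂) {u : ℝ}
    (h1 : u ≤ u₁ ∨ u₂ ≤ u) : F u ≤ Gc (chordα F u₁ u₂) (chordβ F u₁ u₂) u := by
  have hf := Crest.Agent.Helper7.concaveOn_log_of_fourPoint F hF.cont hF.pos hF.logconc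
  have hd : 0 < u₂ - u₁ := sub_pos.mpr h
  have cl := chord_line F h u
  have hle : Real.log (F u) ≤ chordα F u₁ u₂ + chordβ F u₁ u₂ * u := by
    have : (u₂ - u₁) * Real.log (F u) ≤ (u₂ - u₁) * (chordα F u₁ u₂ + chordβ F u₁ u₂ * u) := by
      rw [cl]
      rcases h1 with h1 | h1
      · have tp := three_point hf h1 h.le
        linarith
      · have tp := three_point hf h.le h1
        linarith
    exact le_of_mul_le_mul_left this hd
  refine le_min (hF.lt_one u).le ?_
  calc F u = Real.exp (Real.log (F u)) := (Real.exp_log (hF.pos u)).symm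
    _ ≤ _ := Real.exp_le_exp.mpr hle

theorem chordβ_pos {F : ℝ → ℝ} (hF : GoodCDF F) {u₁ u₂ : ℝ} (h : u₁ < u₂) :
    0 < chordβ F u₁ u₂ := by
  have hd : 0 < u₂ - u₁ := sub_pos.mpr h
  have hmono : Real.log (F u₁) ≤ Real.log (F u₂) :=
    Real.log_le_log (hF.pos u₁) (hF.mono h.le)
  rcases eq_or_lt_of_le hmono with heq | hlt
  · exfalso
    -- `F` is constant `= F u₂ < 1` on `[u₂, ∞)`, contradicting integrability of `F - Hv`
    have hβ : chordβ F u₁ u₂ = 0 := by unfold chordβ; rw [heq, sub_self, zero_div]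
    have hα : chordα F u₁ u₂ = Real.log (F u₂) := by unfold chordα; rw [hβ, heq]; ring
    have hconst : ∀ u, u₂ ≤ u → F u = F u₂ := by
      intro u hu
      refine le_antisymm ?_ (hF.mono hu)
      have := chord_outside hF h (Or.inr hu)
      rw [hβ, hα] at this
      calc F u ≤ Gc (Real.log (F u₂)) 0 u := this
        _ ≤ Real.exp (Real.log (F u₂) + 0 * u) := min_le_right _ _
        _ = F u₂ := by rw [zero_mul, add_zero, Real.exp_log (hF.pos u₂)]
    have hint : IntegrableOn (fun t => F t - Hv t) (Ioi (max u₂ 0)) := hF.integrable.integrableOn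
    have hint2 : IntegrableOn (fun _ : ℝ => F u₂ - 1) (Ioi (max u₂ 0)) := by
      refine hint.congr_fun (fun t ht => ?_) measurableSet_Ioi
      have ht' : max u₂ 0 < t := ht
      have h0 : 0 ≤ t := (le_max_right u₂ 0).trans ht'.le
      have h2 : u₂ ≤ t := (le_max_left u₂ 0).trans ht'.le
      simp only [Hv, if_pos h0, hconst t h2]
    rw [integrableOn_const_iff] at hint2
    rcases hint2 with h0 | hfin
    · have := hF.lt_one u₂
      rw [enorm_eq_zero] at h0
      linarith
    · simp at hfin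
  · unfold chordβ
    exact div_pos (sub_pos.mpr hlt) hd

end Crest.Agent.Helper14
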