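import Mathlib
import Crest.Agent.Helper19.S0423Defs
import Crest.Agent.Helper14.S0423Chord

/-!
# S0423, module M3 (part 2): the mean of the comparison function

For `β > 0` and a `GoodCDF F`:  `F - Gc α β` is integrable on the line with integral
`-(1 + α) / β` (the mean of the distribution `Gc α β`).
-/

namespace Crest.Agent.Helper14

open Crest.Agent.Helper19 MeasureTheory Set

theorem Gc_sub_indicator (α : ℝ) {β : ℝ} (hβ : 0 < β) (u : ℝ) :
    Gc α β u - (Ici (-α / β)).indicator (fun _ => (1 : ℝ)) u
      = (Iio (-α / β)).indicator (fun u => Real.exp α * Real.exp (β * u)) u := by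
  have hmul : β * (-α / β) = -α := by field_simp
  by_cases hu : u < -α / β
  · have h1 : α + β * u < 0 := by
      have := mul_lt_mul_of_pos_left hu hβ
      rw [hmul] at this
      linarith
    have h2 : Real.exp (α + β * u) ≤ 1 := by
      rw [← Real.exp_zero]; exact Real.exp_le_exp.mpr h1.le
    have h3 : u ∉ Ici (-α / β) := by simp [hu]
    have h4 : u ∈ Iio (-α / β) := hu
    rw [indicator_of_notMem h3, indicator_of_mem h4, Gc, min_eq_right h2, Real.exp_add, sub_zero]
  · have hu' : -α / β ≤ u := not_lt.mp hu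
    have h1 : 0 ≤ α + β * u := by
      have := mul_le_mul_of_nonneg_left hu' hβ.le
      rw [hmul] at this
      linarith
    have h2 : 1 ≤ Real.exp (α + β * u) := by
      rw [← Real.exp_zero]; exact Real.exp_le_exp.mpr h1
    have h3 : u ∈ Ici (-α / β) := hu'
    have h4 : u ∉ Iio (-α / β) := by simp [hu']
    rw [indicator_of_mem h3, indicator_of_notMem h4, Gc, min_eq_left h2, sub_self]

theorem integrable_Gc_sub_indicator (α : ℝ) {β : ℝ} (hβ : 0 < β) :
    Integrable (fun u => Gc α β u - (Ici (-α / β)).indicator (fun _ => (1 : ℝ)) u) := by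
  have e : (fun u => Gc α β u - (Ici (-α / β)).indicator (fun _ => (1 : ℝ)) u)
      = (Iio (-α / β)).indicator (fun u => Real.exp α * Real.exp (β * u)) :=
    funext (Gc_sub_indicator α hβ)
  rw [e, integrable_indicator_iff measurableSet_Iio]
  exact ((integrableOn_exp_mul_Iic hβ (-α / β)).mono_set Iio_subset_Iic_self).const_mul _

theorem integral_Gc_sub_indicator (α : ℝ) {β : ℝ} (hβ : 0 < β) :
    ∫ u, (Gc α β u - (Ici (-α / β)).indicator (fun _ => (1 : ℝ)) u) = 1 / β := by
  have e : (fun u => Gc α β u - (Ici (-α / β)).indicator (fun _ => (1 : ℝ)) u)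
      = (Iio (-α / β)).indicator (fun u => Real.exp α * Real.exp (β * u)) :=
    funext (Gc_sub_indicator α hβ)
  have hmul : β * (-α / β) = -α := by field_simp
  rw [e, integral_indicator measurableSet_Iio, ← integral_Iic_eq_integral_Iio,
    integral_const_mul, integral_exp_mul_Iic hβ, hmul, ← mul_div_assoc, ← Real.exp_add,
    add_neg_cancel, Real.exp_zero]

theorem indicator_sub_Hv (a : ℝ) :
    Integrable (fun u => (Ici a).indicator (fun _ => (1 : ℝ)) u - Hv u) ∧
      ∫ u, ((Ici a).indicator (fun _ => (1 : ℝ)) u - Hv u) = -a := by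
  rcases le_or_gt a 0 with ha | ha
  · have e : (fun u => (Ici a).indicator (fun _ => (1 : ℝ)) u - Hv u)
        = (Ico a 0).indicator (fun _ => (1 : ℝ)) := by
      funext u
      unfold Hv
      by_cases h1 : a ≤ u <;> by_cases h2 : 0 ≤ u
      · simp [indicator, h1, h2]
      · simp [indicator, h1, h2, not_le.mp h2]
      · exact absurd (ha.trans h2) h1
      · simp [indicator, h1, h2]
    rw [e]
    refine ⟨(integrable_indicator_iff measurableSet_Ico).mpr ?_, ?_⟩
    · exact integrableOn_const (by simp)
    · rw [integral_indicator measurableSet_Ico, setIntegral_const, Real.volume_real_Ico_of_le ha]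
      simp
  · have e : (fun u => (Ici a).indicator (fun _ => (1 : ℝ)) u - Hv u)
        = fun u => -(Ico 0 a).indicator (fun _ => (1 : ℝ)) u := by
      funext u
      unfold Hv
      by_cases h1 : a ≤ u <;> by_cases h2 : 0 ≤ u
      · simp [indicator, h1, h2, not_lt.mpr h1]
      · exact absurd (ha.le.trans h1) h2
      · simp [indicator, h1, h2, not_le.mp h1]
      · simp [indicator, h1, h2]
    rw [e]
    refine ⟨((integrable_indicator_iff measurableSet_Ico).mpr ?_).neg, ?_⟩
    · exact integrableOn_const (by simp)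
    · rw [integral_neg, integral_indicator measurableSet_Ico, setIntegral_const,
        Real.volume_real_Ico_of_le ha.le]
      simp

theorem sub_Gc_decomp (F : ℝ → ℝ) (α β : ℝ) :
    (fun u => F u - Gc α β u) = fun u => (F u - Hv u)
      - ((Gc α β u - (Ici (-α / β)).indicator (fun _ => (1 : ℝ)) u)
        + ((Ici (-α / β)).indicator (fun _ => (1 : ℝ)) u - Hv u)) := by
  funext u; ring

theorem integrable_sub_Gc {F : ℝ → ℝ} (hF : GoodCDF F) (α : ℝ) {β : ℝ} (hβ : 0 < β) :
    Integrable (fun u => F u - Gc α β u) := by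
  rw [sub_Gc_decomp]
  exact hF.integrable.sub ((integrable_Gc_sub_indicator α hβ).add (indicator_sub_Hv _).1)

theorem integral_sub_Gc {F : ℝ → ℝ} (hF : GoodCDF F) (α : ℝ) {β : ℝ} (hβ : 0 < β) :
    ∫ u, (F u - Gc α β u) = -(1 + α) / β := by
  have hG := integrable_Gc_sub_indicator α hβ
  have hK := indicator_sub_Hv (-α / β)
  have h2 := integral_sub hF.integrable (hG.add hK.1)
  have h3 := integral_add hG hK.1
  simp only [Pi.add_apply] at h2
  rw [sub_Gc_decomp, h2, h3, hF.mean_zero, integral_Gc_sub_indicator α hβ, hK.2]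
  field_simp
  ring

end Crest.Agent.Helper14
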