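import Mathlib
import Crest.Agent.Helper19.S0423Defs
import Crest.Agent.Helper14.S0423Chord
import Crest.Agent.Helper14.S0423Mean
import Crest.Agent.Helper8.S0423Weight
import Crest.Agent.Helper25.S0423Calc

/-!
# S0423, module M3: the abstract generalised Grünbaum lemma

For every centred log-concave distribution function `F` (`GoodCDF F`),
`(4/9) e^{-1/3} ≤ ∫_{s>0} F(4/3 - s) s e^{-s} ds`, given the one-parameter calculus bound `hC1`
for the extremal family `min 1 (exp (-1 + u / c))`.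
-/

namespace Crest.Agent.Helper14

open Crest.Agent.Helper19 Crest.Agent.Helper8 MeasureTheory Set

/-- The functional `J Φ = ∫_{s>0} Φ(4/3 - s) s e^{-s} ds`. -/
noncomputable def J (Φ : ℝ → ℝ) : ℝ := ∫ s in Ioi (0 : ℝ), Φ (4 / 3 - s) * (s * Real.exp (-s))

theorem J_integrable {Φ : ℝ → ℝ} (hc : Continuous Φ) (h0 : ∀ u, 0 ≤ Φ u) (h1 : ∀ u, Φ u ≤ 1) :
    IntegrableOn (fun s => Φ (4 / 3 - s) * (s * Real.exp (-s))) (Ioi 0) := by
  refine Integrable.mono' weight_integrable ?_ ?_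
  · exact (by fun_prop : Continuous fun s => Φ (4 / 3 - s) * (s * Real.exp (-s))).aestronglyMeasurable
  · refine (ae_restrict_mem measurableSet_Ioi).mono (fun s hs => ?_)
    have hs' : (0 : ℝ) < s := hs
    have hv : 0 ≤ s * Real.exp (-s) := mul_nonneg hs'.le (Real.exp_pos _).le
    rw [Real.norm_eq_abs, abs_mul, abs_of_nonneg (h0 _), abs_of_nonneg hv]
    exact mul_le_of_le_one_left hv (h1 _)

theorem J_mono {Φ Ψ : ℝ → ℝ} (hcΦ : Continuous Φ) (h0Φ : ∀ u, 0 ≤ Φ u) (h1Φ : ∀ u, Φ u ≤ 1)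
    (hcΨ : Continuous Ψ) (h0Ψ : ∀ u, 0 ≤ Ψ u) (h1Ψ : ∀ u, Ψ u ≤ 1) (h : ∀ u, Φ u ≤ Ψ u) :
    J Φ ≤ J Ψ := by
  refine setIntegral_mono_on (J_integrable hcΦ h0Φ h1Φ) (J_integrable hcΨ h0Ψ h1Ψ)
    measurableSet_Ioi (fun s hs => ?_)
  have hs' : (0 : ℝ) < s := hs
  exact mul_le_mul_of_nonneg_right (h _) (mul_nonneg hs'.le (Real.exp_pos _).le)

/-- Left point of the level pair of `s ↦ s e^{-s}` of width `x`. -/
noncomputable def s1 (x : ℝ) : ℝ := x / (Real.exp x - 1)

/-- Intercept of the chord of `log F` through `4/3 - s₂(x)`, `4/3 - s₁(x)`. -/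
noncomputable def al (F : ℝ → ℝ) (x : ℝ) : ℝ := chordα F (4 / 3 - (s1 x + x)) (4 / 3 - s1 x)

/-- Slope of the chord of `log F` through `4/3 - s₂(x)`, `4/3 - s₁(x)`. -/
noncomputable def be (F : ℝ → ℝ) (x : ℝ) : ℝ := chordβ F (4 / 3 - (s1 x + x)) (4 / 3 - s1 x)

theorem u_lt {x : ℝ} (hx : 0 < x) : 4 / 3 - (s1 x + x) < 4 / 3 - s1 x := by linarith

theorem s1_pos {x : ℝ} (hx : 0 < x) : 0 < s1 x := level_pos x hx

theorem be_pos {F : ℝ → ℝ} (hF : GoodCDF F) {x : ℝ} (hx : 0 < x) : 0 < be F x :=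
  chordβ_pos hF (u_lt hx)

theorem G_le_F {F : ℝ → ℝ} (hF : GoodCDF F) {x : ℝ} (hx : 0 < x) {s : ℝ} (h1 : s1 x ≤ s)
    (h2 : s ≤ s1 x + x) : Gc (al F x) (be F x) (4 / 3 - s) ≤ F (4 / 3 - s) :=
  chord_inside hF (u_lt hx) (by linarith) (by linarith)

theorem F_le_G {F : ℝ → ℝ} (hF : GoodCDF F) {x : ℝ} (hx : 0 < x) {s : ℝ}
    (h : s ≤ s1 x ∨ s1 x + x ≤ s) : F (4 / 3 - s) ≤ Gc (al F x) (be F x) (4 / 3 - s) := by
  refine chord_outside hF (u_lt hx) ?_
  rcases h with h | h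
  · exact Or.inr (by linarith)
  · exact Or.inl (by linarith)

/-- Integrated crossing inequality: `J F - J G ≥ ω · mean(G)`. -/
theorem P1 {F : ℝ → ℝ} (hF : GoodCDF F) {x : ℝ} (hx : 0 < x) :
    s1 x * Real.exp (-(s1 x)) * (-(1 + al F x) / be F x) ≤ J F - J (Gc (al F x) (be F x)) := by
  have hβ : 0 < be F x := be_pos hF hx
  have hs1 : 0 < s1 x := s1_pos hx
  have hω0 : 0 ≤ s1 x * Real.exp (-(s1 x)) := mul_nonneg hs1.le (Real.exp_pos _).le
  have hDint : Integrable (fun s => F (4 / 3 - s) - Gc (al F x) (be F x) (4 / 3 - s)) :=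
    (integrable_sub_Gc hF (al F x) hβ).comp_sub_left (4 / 3)
  have hDval : ∫ s, (F (4 / 3 - s) - Gc (al F x) (be F x) (4 / 3 - s))
      = -(1 + al F x) / be F x := by
    rw [integral_sub_left_eq_self (fun u => F u - Gc (al F x) (be F x) u) volume (4 / 3)]
    exact integral_sub_Gc hF (al F x) hβ
  have hD0 : ∀ s, s ≤ 0 → F (4 / 3 - s) - Gc (al F x) (be F x) (4 / 3 - s) ≤ 0 := fun s hs =>
    sub_nonpos.mpr (F_le_G hF hx (Or.inl (hs.trans hs1.le)))
  have hA : ∫ s, (F (4 / 3 - s) - Gc (al F x) (be F x) (4 / 3 - s))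
      ≤ ∫ s in Ioi (0 : ℝ), (F (4 / 3 - s) - Gc (al F x) (be F x) (4 / 3 - s)) := by
    rw [← integral_add_compl (measurableSet_Ioi (a := (0 : ℝ))) hDint]
    have : ∫ s in (Ioi (0 : ℝ))ᶜ, (F (4 / 3 - s) - Gc (al F x) (be F x) (4 / 3 - s)) ≤ 0 :=
      setIntegral_nonpos measurableSet_Ioi.compl (fun s hs => hD0 s (not_lt.mp hs))
    linarith
  have hIF := J_integrable hF.cont (fun u => (hF.pos u).le) (fun u => (hF.lt_one u).le)
  have hIG := J_integrable (Gc_continuous (al F x) (be F x)) (Gc_nonneg _ _) (Gc_le_one _ _)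
  have hB : ∫ s in Ioi (0 : ℝ), s1 x * Real.exp (-(s1 x))
        * (F (4 / 3 - s) - Gc (al F x) (be F x) (4 / 3 - s))
      ≤ ∫ s in Ioi (0 : ℝ), (F (4 / 3 - s) * (s * Real.exp (-s))
        - Gc (al F x) (be F x) (4 / 3 - s) * (s * Real.exp (-s))) := by
    refine setIntegral_mono_on (hDint.integrableOn.const_mul _) (hIF.sub hIG) measurableSet_Ioi
      (fun s hs => ?_)
    have hs' : (0 : ℝ) < s := hs
    rcases lt_or_ge s (s1 x) with h1 | h1
    · have hle := F_le_G hF hx (Or.inl h1.le)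
      have hv : s * Real.exp (-s) ≤ s1 x * Real.exp (-(s1 x)) := level_left x s hx hs'.le h1.le
      nlinarith [mul_nonneg (sub_nonneg.mpr hle) (sub_nonneg.mpr hv)]
    · rcases le_or_gt s (s1 x + x) with h2 | h2
      · have hle := G_le_F hF hx h1 h2
        have hv : s1 x * Real.exp (-(s1 x)) ≤ s * Real.exp (-s) := level_inside x s hx h1 h2
        nlinarith [mul_nonneg (sub_nonneg.mpr hle) (sub_nonneg.mpr hv)]
      · have hle := F_le_G hF hx (Or.inr h2.le)
        have hv : s * Real.exp (-s) ≤ s1 x * Real.exp (-(s1 x)) := level_right x s hx h2.le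
        nlinarith [mul_nonneg (sub_nonneg.mpr hle) (sub_nonneg.mpr hv)]
  rw [integral_const_mul, integral_sub hIF hIG] at hB
  unfold J
  calc s1 x * Real.exp (-(s1 x)) * (-(1 + al F x) / be F x)
      = s1 x * Real.exp (-(s1 x))
          * ∫ s, (F (4 / 3 - s) - Gc (al F x) (be F x) (4 / 3 - s)) := by rw [hDval]
    _ ≤ s1 x * Real.exp (-(s1 x))
          * ∫ s in Ioi (0 : ℝ), (F (4 / 3 - s) - Gc (al F x) (be F x) (4 / 3 - s)) :=
        mul_le_mul_of_nonneg_left hA hω0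
    _ ≤ _ := hB

/-- The mean of the chord distribution is at most the width of the level interval. -/
theorem P2 {F : ℝ → ℝ} (hF : GoodCDF F) {x : ℝ} (hx : 0 < x) :
    -(1 + al F x) / be F x ≤ x := by
  have hβ := be_pos hF hx
  rw [← integral_sub_Gc hF (al F x) hβ]
  have hind : Integrable
      ((Icc (4 / 3 - (s1 x + x)) (4 / 3 - s1 x)).indicator (fun _ : ℝ => (1 : ℝ))) :=
    (integrable_indicator_iff measurableSet_Icc).mpr (integrableOn_const (by simp))
  calc ∫ u, (F u - Gc (al F x) (be F x) u)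
      ≤ ∫ u, (Icc (4 / 3 - (s1 x + x)) (4 / 3 - s1 x)).indicator (fun _ : ℝ => (1 : ℝ)) u := by
        refine integral_mono (integrable_sub_Gc hF _ hβ) hind (fun u => ?_)
        by_cases hu : u ∈ Icc (4 / 3 - (s1 x + x)) (4 / 3 - s1 x)
        · simp only [indicator_of_mem hu]
          have := Gc_nonneg (al F x) (be F x) u
          have := (hF.lt_one u).le
          linarith
        · simp only [indicator_of_notMem hu]
          have : u ≤ 4 / 3 - (s1 x + x) ∨ 4 / 3 - s1 x ≤ u := by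
            by_contra hcon
            rw [not_or, not_le, not_le] at hcon
            exact hu ⟨hcon.1.le, hcon.2.le⟩
          exact sub_nonpos.mpr (chord_outside hF (u_lt hx) this)
    _ = x := by
        rw [integral_indicator measurableSet_Icc, setIntegral_const,
          Real.volume_real_Icc_of_le (u_lt hx).le, smul_eq_mul, mul_one]
        ring

/-- Truncation bound: `J F ≥ J G - (tails of the weight)`. -/
theorem P3 {F : ℝ → ℝ} (hF : GoodCDF F) {x : ℝ} (hx : 0 < x) :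
    J (Gc (al F x) (be F x)) - 4 / x ≤ J F := by
  have hs1 : 0 < s1 x := s1_pos hx
  have hIF := J_integrable hF.cont (fun u => (hF.pos u).le) (fun u => (hF.lt_one u).le)
  have hIG := J_integrable (Gc_continuous (al F x) (be F x)) (Gc_nonneg _ _) (Gc_le_one _ _)
  have hI1 : IntegrableOn ((Ioo 0 (s1 x)).indicator (fun s : ℝ => s * Real.exp (-s))) (Ioi 0) :=
    weight_integrable.indicator measurableSet_Ioo
  have hI2 : IntegrableOn ((Ioi (s1 x + x)).indicator (fun s : ℝ => s * Real.exp (-s)))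
      (Ioi 0) :=
    weight_integrable.indicator measurableSet_Ioi
  have hI12 : IntegrableOn (fun s => F (4 / 3 - s) * (s * Real.exp (-s))
      + (Ioo 0 (s1 x)).indicator (fun s : ℝ => s * Real.exp (-s)) s) (Ioi 0) := hIF.add hI1
  have key : ∫ s in Ioi (0 : ℝ), Gc (al F x) (be F x) (4 / 3 - s) * (s * Real.exp (-s))
      ≤ ∫ s in Ioi (0 : ℝ), ((F (4 / 3 - s) * (s * Real.exp (-s))
          + (Ioo 0 (s1 x)).indicator (fun s : ℝ => s * Real.exp (-s)) s)
          + (Ioi (s1 x + x)).indicator (fun s : ℝ => s * Real.exp (-s)) s) := by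
    refine setIntegral_mono_on hIG (hI12.add hI2) measurableSet_Ioi (fun s hs => ?_)
    have hs' : (0 : ℝ) < s := hs
    have hv : 0 ≤ s * Real.exp (-s) := mul_nonneg hs'.le (Real.exp_pos _).le
    have hG1 := Gc_le_one (al F x) (be F x) (4 / 3 - s)
    have hF0 := (hF.pos (4 / 3 - s)).le
    rcases lt_or_ge s (s1 x) with h1 | h1
    · have m1 : s ∈ Ioo 0 (s1 x) := ⟨hs', h1⟩
      have m2 : s ∉ Ioi (s1 x + x) := by simp only [mem_Ioi, not_lt]; linarith
      simp only [indicator_of_mem m1, indicator_of_notMem m2]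
      nlinarith
    · rcases le_or_gt s (s1 x + x) with h2 | h2
      · have m1 : s ∉ Ioo 0 (s1 x) := by
          simp only [mem_Ioo, not_and, not_lt]; intro _; exact h1
        have m2 : s ∉ Ioi (s1 x + x) := by simp only [mem_Ioi, not_lt]; exact h2
        simp only [indicator_of_notMem m1, indicator_of_notMem m2]
        have hle := G_le_F hF hx h1 h2
        nlinarith
      · have m1 : s ∉ Ioo 0 (s1 x) := by
          simp only [mem_Ioo, not_and, not_lt]; intro _; exact h1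
        have m2 : s ∈ Ioi (s1 x + x) := h2
        simp only [indicator_of_notMem m1, indicator_of_mem m2]
        nlinarith
  have e1 : Ioi (0 : ℝ) ∩ Ioo 0 (s1 x) = Ioo 0 (s1 x) := inter_eq_right.mpr Ioo_subset_Ioi_self
  have e2 : Ioi (0 : ℝ) ∩ Ioi (s1 x + x) = Ioi (s1 x + x) :=
    inter_eq_right.mpr (Ioi_subset_Ioi (by linarith))
  rw [integral_add hI12 hI2, integral_add hIF hI1, setIntegral_indicator measurableSet_Ioo,
    setIntegral_indicator measurableSet_Ioi, e1, e2] at key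
  have ht : (∫ s in Ioo 0 (s1 x), s * Real.exp (-s))
      + (∫ s in Ioi (s1 x + x), s * Real.exp (-s)) ≤ 4 / x := weight_tails x hx
  unfold J
  linarith

/-- Shift bound inside the comparison family. -/
theorem P4 {F : ℝ → ℝ} (hF : GoodCDF F) {α β : ℝ} (hα : α ≤ -1) (hβ : 0 < β) :
    J (Gc (-1) β) - J (Gc α β) ≤ Real.exp (-1) * (-(1 + α) / β) := by
  have hI1 := J_integrable (Gc_continuous (-1) β) (Gc_nonneg (-1) β) (Gc_le_one (-1) β)
  have hIG := J_integrable (Gc_continuous α β) (Gc_nonneg α β) (Gc_le_one α β)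
  have e : (fun u => Gc (-1) β u - Gc α β u)
      = fun u => (F u - Gc α β u) - (F u - Gc (-1) β u) := by funext u; ring
  have hE : Integrable (fun u => Gc (-1) β u - Gc α β u) := by
    rw [e]
    exact (integrable_sub_Gc hF α hβ).sub (integrable_sub_Gc hF (-1) hβ)
  have hEval : ∫ u, (Gc (-1) β u - Gc α β u) = -(1 + α) / β := by
    rw [e, integral_sub (integrable_sub_Gc hF α hβ) (integrable_sub_Gc hF (-1) hβ),
      integral_sub_Gc hF α hβ, integral_sub_Gc hF (-1) hβ]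
    simp
  have hEs : Integrable (fun s => Gc (-1) β (4 / 3 - s) - Gc α β (4 / 3 - s)) :=
    hE.comp_sub_left (4 / 3)
  have hEsval : ∫ s, (Gc (-1) β (4 / 3 - s) - Gc α β (4 / 3 - s)) = -(1 + α) / β := by
    rw [integral_sub_left_eq_self (fun u => Gc (-1) β u - Gc α β u) volume (4 / 3)]
    exact hEval
  have hnn : ∀ s, 0 ≤ Gc (-1) β (4 / 3 - s) - Gc α β (4 / 3 - s) := fun s =>
    sub_nonneg.mpr (Gc_mono_left hα β _)
  unfold J
  rw [← integral_sub hI1 hIG]
  calc ∫ s in Ioi (0 : ℝ), (Gc (-1) β (4 / 3 - s) * (s * Real.exp (-s))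
        - Gc α β (4 / 3 - s) * (s * Real.exp (-s)))
      ≤ ∫ s in Ioi (0 : ℝ), Real.exp (-1) * (Gc (-1) β (4 / 3 - s) - Gc α β (4 / 3 - s)) := by
        refine setIntegral_mono_on (hI1.sub hIG) (hEs.integrableOn.const_mul _) measurableSet_Ioi
          (fun s hs => ?_)
        have h1 := weight_le s
        have h2 := hnn s
        nlinarith [mul_nonneg h2 (sub_nonneg.mpr h1)]
    _ = Real.exp (-1) * ∫ s in Ioi (0 : ℝ), (Gc (-1) β (4 / 3 - s) - Gc α β (4 / 3 - s)) :=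
        integral_const_mul _ _
    _ ≤ Real.exp (-1) * ∫ s, (Gc (-1) β (4 / 3 - s) - Gc α β (4 / 3 - s)) := by
        refine mul_le_mul_of_nonneg_left ?_ (Real.exp_pos _).le
        exact setIntegral_le_integral hEs (Filter.Eventually.of_forall hnn)
    _ = _ := by rw [hEsval]

theorem C1_Gc
    (hC1 : ∀ c : ℝ, 0 < c → 4 / 9 * Real.exp (-(1 / 3)) ≤
      ∫ s in Ioi (0 : ℝ), min 1 (Real.exp (-1 + (4 / 3 - s) / c)) * (s * Real.exp (-s)))
    {β : ℝ} (hβ : 0 < β) : 4 / 9 * Real.exp (-(1 / 3)) ≤ J (Gc (-1) β) := by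
  have h := hC1 (1 / β) (by positivity)
  have e : ∀ s : ℝ, (4 / 3 - s) / (1 / β) = β * (4 / 3 - s) := fun s => by field_simp
  simp only [e] at h
  exact h

theorem case_le
    (hC1 : ∀ c : ℝ, 0 < c → 4 / 9 * Real.exp (-(1 / 3)) ≤
      ∫ s in Ioi (0 : ℝ), min 1 (Real.exp (-1 + (4 / 3 - s) / c)) * (s * Real.exp (-s)))
    {F : ℝ → ℝ} (hF : GoodCDF F) {x : ℝ} (hx : 0 < x) (hα : al F x ≤ -1) :
    4 / 9 * Real.exp (-(1 / 3)) - Real.exp (-1) * (-(1 + al F x) / be F x) ≤ J F := by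
  have hβ := be_pos hF hx
  have h1 := P1 hF hx
  have h4 := P4 hF hα hβ
  have hc := C1_Gc hC1 hβ
  have hμ : 0 ≤ -(1 + al F x) / be F x := div_nonneg (by linarith) hβ.le
  have hω : 0 ≤ s1 x * Real.exp (-(s1 x)) := mul_nonneg (s1_pos hx).le (Real.exp_pos _).le
  have := mul_nonneg hω hμ
  linarith

theorem case_ge
    (hC1 : ∀ c : ℝ, 0 < c → 4 / 9 * Real.exp (-(1 / 3)) ≤
      ∫ s in Ioi (0 : ℝ), min 1 (Real.exp (-1 + (4 / 3 - s) / c)) * (s * Real.exp (-s)))
    {F : ℝ → ℝ} (hF : GoodCDF F) {x : ℝ} (hx : 0 < x) (hα : -1 ≤ al F x) :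
    4 / 9 * Real.exp (-(1 / 3)) - 4 / x ≤ J F := by
  have hβ := be_pos hF hx
  have h3 := P3 hF hx
  have hc := C1_Gc hC1 hβ
  have hm : J (Gc (-1) (be F x)) ≤ J (Gc (al F x) (be F x)) :=
    J_mono (Gc_continuous _ _) (Gc_nonneg _ _) (Gc_le_one _ _) (Gc_continuous _ _)
      (Gc_nonneg _ _) (Gc_le_one _ _) (fun u => Gc_mono_left hα _ u)
  linarith

theorem al_continuousOn {F : ℝ → ℝ} (hF : GoodCDF F) : ContinuousOn (al F) (Ioi 0) := by
  have hexp : ∀ x ∈ Ioi (0 : ℝ), Real.exp x - 1 ≠ 0 := fun x hx => by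
    have : 1 < Real.exp x := Real.one_lt_exp_iff.mpr hx
    linarith
  have hlog : Continuous (fun u => Real.log (F u)) := hF.cont.log (fun u => (hF.pos u).ne')
  have hs : ContinuousOn (fun x : ℝ => x / (Real.exp x - 1)) (Ioi 0) :=
    continuousOn_id.div ((Real.continuous_exp.sub continuous_const).continuousOn) hexp
  have hu1 : ContinuousOn (fun x : ℝ => 4 / 3 - (x / (Real.exp x - 1) + x)) (Ioi 0) :=
    continuousOn_const.sub (hs.add continuousOn_id)
  have hu2 : ContinuousOn (fun x : ℝ => 4 / 3 - x / (Real.exp x - 1)) (Ioi 0) :=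
    continuousOn_const.sub hs
  have hf1 := hlog.comp_continuousOn hu1
  have hf2 := hlog.comp_continuousOn hu2
  have hden : ∀ x ∈ Ioi (0 : ℝ),
      (4 / 3 - x / (Real.exp x - 1)) - (4 / 3 - (x / (Real.exp x - 1) + x)) ≠ 0 := fun x hx => by
    have hx' : (0 : ℝ) < x := hx
    have e : (4 / 3 - x / (Real.exp x - 1)) - (4 / 3 - (x / (Real.exp x - 1) + x)) = x := by ring
    rw [e]; exact hx'.ne'
  exact hf1.sub (((hf2.sub hf1).div (hu2.sub hu1) hden).mul hu1)

/-- **M3**: the abstract generalised Grünbaum lemma. -/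
theorem grunbaum_of_calc
    (hC1 : ∀ c : ℝ, 0 < c → 4 / 9 * Real.exp (-(1 / 3)) ≤
      ∫ s in Ioi (0 : ℝ), min 1 (Real.exp (-1 + (4 / 3 - s) / c)) * (s * Real.exp (-s)))
    (F : ℝ → ℝ) (hF : GoodCDF F) :
    4 / 9 * Real.exp (-(1 / 3)) ≤ ∫ s in Ioi (0 : ℝ), F (4 / 3 - s) * (s * Real.exp (-s)) := by
  change 4 / 9 * Real.exp (-(1 / 3)) ≤ J F
  by_contra hcon
  rw [not_le] at hcon
  have he : 0 < Real.exp (-1) := Real.exp_pos _
  have he1 : Real.exp (-1) < 1 := Real.exp_lt_one_iff.mpr (by norm_num)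
  have hδ0 : 0 < 4 / 9 * Real.exp (-(1 / 3)) - J F := by linarith
  have hsmall : ∀ x, 0 < x → Real.exp (-1) * x < 4 / 9 * Real.exp (-(1 / 3)) - J F →
      -1 < al F x := by
    intro x hx hxd
    by_contra h
    rw [not_lt] at h
    have h1 := case_le hC1 hF hx h
    have h2 := P2 hF hx
    have := mul_le_mul_of_nonneg_left h2 he.le
    linarith
  have hlarge : ∀ x, 0 < x → 4 / x < 4 / 9 * Real.exp (-(1 / 3)) - J F → al F x < -1 := by
    intro x hx hxd
    by_contra h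
    rw [not_lt] at h
    have h1 := case_ge hC1 hF hx h
    linarith
  obtain ⟨δ, hδ⟩ : ∃ δ, δ = 4 / 9 * Real.exp (-(1 / 3)) - J F := ⟨_, rfl⟩
  rw [← hδ] at hδ0 hsmall hlarge
  have hx₁ : (0 : ℝ) < δ := hδ0
  have hx₂ : (0 : ℝ) < 8 / δ := by positivity
  have ha1 : -1 < al F δ := hsmall δ hx₁ (by nlinarith)
  have ha2 : al F (8 / δ) < -1 := by
    refine hlarge (8 / δ) hx₂ ?_
    have : 4 / (8 / δ) = δ / 2 := by field_simp; ring
    rw [this]; linarith
  have hsub : uIcc δ (8 / δ) ⊆ Ioi 0 := fun y hy => lt_of_lt_of_le (lt_min hx₁ hx₂) hy.1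
  have hcont : ContinuousOn (al F) (uIcc δ (8 / δ)) := (al_continuousOn hF).mono hsub
  have hmem : (-1 : ℝ) ∈ uIcc (al F δ) (al F (8 / δ)) := by
    rw [mem_uIcc]; right; exact ⟨ha2.le, ha1.le⟩
  obtain ⟨y, hy, hy1⟩ := intermediate_value_uIcc hcont hmem
  have hy0 : 0 < y := hsub hy
  have := case_le hC1 hF hy0 hy1.le
  rw [hy1] at this
  simp at this
  linarith

/-- **M3**, with the calculus bound of `Crest.Agent.Helper25` plugged in. -/
theorem grunbaum (F : ℝ → ℝ) (hF : GoodCDF F) :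
    4 / 9 * Real.exp (-(1 / 3)) ≤ ∫ s in Ioi (0 : ℝ), F (4 / 3 - s) * (s * Real.exp (-s)) :=
  grunbaum_of_calc Crest.Agent.Helper25.calc_bound F hF

end Crest.Agent.Helper14
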